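import Mathlib
import Vale.Agent.Lib.P068.Defs
import Vale.Agent.Lib.P068.Proofs

namespace Vale.Agent.Results.P068.A_main

open Vale.Agent.Lib.P068

/-- An arbitrary matroid `M` and a direct sum of finitely many near-uniform matroids on the same
ground set satisfy intersection. -/
theorem result {α ι : Type*} [Finite ι] (Ns : ι → Matroid α)
    (h : Pairwise (Function.onFun Disjoint fun i => (Ns i).E))
    (hNs : ∀ i, NearUniform (Ns i)) (M : Matroid α)
    (hE : M.E = (Matroid.disjointSigma Ns h).E) :
    SatisfiesIntersection M (Matroid.disjointSigma Ns h) :=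
  main_theorem Ns h hNs M hE

end Vale.Agent.Results.P068.A_main
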